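import Vale.Agent.P088.R2.H455.G.G1
import Vale.Agent.P088.R2.H455.J.K7

/-!
# P088, JOINT: two general pairs near a constant metric, on a compact set of a chart
-/

set_option linter.all false

open Bundle Manifold MeasureTheory Set Filter Topology
open scoped ContDiff Matrix ENNReal

noncomputable section

namespace Vale.Agent.P088.R2.H455.G

open Vale.Agent.P088 Vale.Agent.P088.B Vale.Agent.P088.EYM
open Vale.Agent.P088.H207 (gl ch_at src_at gch_at IsDom IsOpn inM MatchO CloseO IsBall oball kball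
  rad)
open Vale.Agent.P088.H207.R (vO vO_sub vO_compact Rg rg_of nbK reg_between dom_pt)
open Vale.Agent.P088.HY.H794 (chR chR_sm chR_nonneg chR_le chR_one chR_zero chR_bd ClR oB isOpen_oB
  in_r in_r' mul_scale)
open Vale.Agent.P088.R2.H455.T (ClRC)
open Vale.Agent.P088.R2.H455.J

universe u

/-- Rigidity of a pair near a constant metric, among the pairs near the same constant metric. -/
theorem rigP_near {n N : ℕ} [NeZero n] {k : ℕ} {B ε : ℝ} (hε : 0 < ε) (hRig : RigGR n N k B ε)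
    (R : ℝ) (hR : 0 < R) : ∃ δ : ℝ, 0 < δ ∧ ∃ s : ℝ, 0 < s ∧
    (∀ y : Fin n → ℝ, (∀ j, |y j| ≤ R) → ∑ j, y j ^ 2 ≤ (3 / 2 * s) ^ 2) ∧
    s * (max 1 s ^ k * δ) ≤ ε ∧
    ∀ G : Matrix (Fin n) (Fin n) ℝ, G.PosDef → (∀ i j, |G i j| ≤ B) → B⁻¹ ≤ G.det →
    ∀ h : LR.MF n, LR.SmM h → (∀ y, (h y).PosDef) → (∀ i j, LR.Cl k δ (fun y => h y i j - G i j)) →
    ∀ Ω : Set (Fin n → ℝ), IsOpen Ω → interior (closure Ω) = Ω → (∀ y ∈ Ω, ∀ j, |y j| ≤ R) →
    ∀ α : LR.Cn n N, LR.SmU α → (∀ i, ClRC k s ε (α i)) →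
    RigP n N Ω (exG s G h) α (fun g β => (∀ y ∈ Ω, ∀ i j, ∀ l ≤ k,
      ‖iteratedFDeriv ℝ l (fun y => g y i j - G i j) y‖ ≤ δ) ∧ ∀ i, ClRC k s ε (β i)) := by
  obtain ⟨X, hX1, hX⟩ := chR_bd n k
  obtain ⟨s, hs⟩ : ∃ s : ℝ, s = n * R := ⟨_, rfl⟩
  have hn1 : (1 : ℝ) ≤ n := by exact_mod_cast Nat.one_le_iff_ne_zero.2 (NeZero.ne n)
  have hs0 : 0 < s := by rw [hs]; positivity
  have hRs : R ≤ s := by rw [hs]; nlinarith
  obtain ⟨D, hD⟩ : ∃ D : ℝ, D = 2 ^ k * (X * max 1 s ^ k) := ⟨_, rfl⟩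
  have hD0 : 0 < D := by rw [hD]; positivity
  have hm0 : 0 < max 1 s ^ k := by positivity
  have hD1 : max 1 s ^ k ≤ D := by
    rw [hD]
    have h1 : (1 : ℝ) ≤ 2 ^ k := one_le_pow₀ (by norm_num)
    have h3 : max 1 s ^ k ≤ X * max 1 s ^ k := by nlinarith
    nlinarith
  refine ⟨min (ε / D) (ε / (s * max 1 s ^ k)), lt_min (by positivity) (by positivity), s, hs0,
    fun y hy => ?_, ?_, ?_⟩
  · calc ∑ j, y j ^ 2 ≤ ∑ _j : Fin n, R ^ 2 := by
          refine Finset.sum_le_sum fun j _ => ?_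
          rw [← sq_abs]
          exact pow_le_pow_left₀ (abs_nonneg _) (hy j) 2
      _ = n * R ^ 2 := by simp
      _ ≤ (3 / 2 * s) ^ 2 := by
          rw [hs]
          nlinarith [sq_nonneg R, mul_nonneg (sub_nonneg.2 hn1) (sq_nonneg R),
            mul_nonneg (mul_nonneg (sub_nonneg.2 hn1) (sub_nonneg.2 hn1)) (sq_nonneg R)]
  · calc s * (max 1 s ^ k * min (ε / D) (ε / (s * max 1 s ^ k)))
        ≤ s * (max 1 s ^ k * (ε / (s * max 1 s ^ k))) :=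
          mul_le_mul_of_nonneg_left (mul_le_mul_of_nonneg_left (min_le_right _ _) hm0.le) hs0.le
      _ = ε := by field_simp
  intro G hG hGb hGd h hh hhp hhcl Ω hΩ hreg hΩR α hα hαc g β hg hgp hoff hβ hβoff hgX hor
  have hDe : max 1 s ^ k * (ε / D) ≤ ε := by
    calc max 1 s ^ k * (ε / D) ≤ D * (ε / D) := mul_le_mul_of_nonneg_right hD1 (by positivity)
      _ = ε := by field_simp
  have hcl1 : ∀ i j, ClR k s ε (fun y => exG s G h y i j - G i j) := by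
    intro i j l hl y
    have e : (fun y => exG s G h y i j - G i j) = fun y => chR (s⁻¹ • y) * (h y i j - G i j) := by
      funext y
      show G i j + chR (s⁻¹ • y) * (h y i j - G i j) - G i j = _
      ring
    rw [e]
    refine (mul_scale hs0 isOpen_univ chR_sm (((hh i j).sub contDiff_const).contDiffOn) hX
      (by linarith) (A := max 1 s ^ k * (ε / D)) (fun l hl y _ => sc_le hs0 hl
        ((hhcl i j l hl y).trans (min_le_left _ _))) hl (mem_univ y)).trans ?_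
    calc 2 ^ l * (X * (max 1 s ^ k * (ε / D))) ≤ 2 ^ k * (X * (max 1 s ^ k * (ε / D))) :=
          mul_le_mul_of_nonneg_right (pow_le_pow_right₀ (by norm_num) hl) (by positivity)
      _ = D * (ε / D) := by rw [hD]; ring
      _ = ε := by field_simp
  have hout : ∀ y : Fin n → ℝ, (∃ j, 4 * s < |y j|) → exG s G h y = G := by
    rintro y ⟨j, hj⟩
    refine exG_out hs0 ?_
    have h1 : y j ^ 2 ≤ ∑ j, y j ^ 2 :=
      Finset.single_le_sum (f := fun j => y j ^ 2) (fun i _ => sq_nonneg _) (Finset.mem_univ j)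
    have h2 : (4 * s) ^ 2 ≤ y j ^ 2 := by
      rw [← sq_abs (y j)]
      exact pow_le_pow_left₀ (by positivity) hj.le 2
    nlinarith
  refine hRig s hs0 G hG hGb hGd Ω hΩ hreg (fun y hy j => (hΩR y hy j).trans (by linarith))
    (exG s G h) g (exG_sm hh) hg (exG_pos hG hhp) hgp hout hoff hcl1 (fun i j l hl y => ?_) α β hα
    hβ hβoff hαc hgX.2 hor
  by_cases hy : y ∈ Ω
  · exact (sc_le hs0 hl ((hgX.1 y hy i j l hl).trans (min_le_left _ _))).trans hDe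
  · rw [Vale.Agent.P088.H292.BM.iter_off hreg ((hg i j).sub contDiff_const)
      ((exG_sm hh i j).sub contDiff_const) (fun y hy => by rw [hoff y hy]) l hy]
    exact hcl1 i j l hl y

/-- **Two pairs near a constant metric, on a compact set of a chart.** -/
theorem near_G {n : ℕ} [NeZero n] (hn : 3 ≤ n) {N : ℕ} (hN : 1 ≤ N) {k : ℕ} {B ε : ℝ}
    (hε : 0 < ε) (hRig : RigGR n N k B ε) (R : ℝ) (hR : 0 < R) : ∃ δ : ℝ, 0 < δ ∧
    ∀ G : Matrix (Fin n) (Fin n) ℝ, G.PosDef → (∀ i j, |G i j| ≤ B) → 1 / B ≤ G.det →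
    ∀ h : LR.MF n, LR.SmM h → (∀ y, (h y).PosDef) → (∀ i j, LR.Cl k δ (fun y => h y i j - G i j)) →
    ∀ α : LR.Cn n N, LR.SmU α → (∀ i, LR.U.ClC k δ (α i)) →
    ∀ {M : Type u} [TopologicalSpace M]
    [ChartedSpace (EuclideanHalfSpace n) M] [IsManifold (𝓡∂ n) ∞ M] [T2Space M] [CompactSpace M]
    [ConnectedSpace M] (Z : At n M) (_ : Z = at_ n M) (Γ O₀ : Set M) (_ : IsOpen O₀)
    (_ : Γ = O₀ ∩ bd Z) (_ : Γ.Nonempty) (P P' Q Q' : Pair Z N)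
    (_ : Vale.Agent.P088.B.SameData Γ P Q)
    (_ : Related Γ P P') (_ : Related Γ Q Q') (p : M) (W : Set (Fin n → ℝ))
    (_ : IsOpn Z p W) (_ : MatchP h α P' p W) (_ : CloseO k δ (fun _ => G) Q' p W)
    (_ : BddA k δ Q' p W) (K : Set (Fin n → ℝ)) (_ : IsCompact K)
    (_ : K ⊆ W) (_ : ∀ y ∈ K, ∀ j, |y j| ≤ R)
    (_ : IsPreconnected ((bd Z)ᶜ \ inM Z p K)) (_ : B8.PwLe (inM Z p K)ᶜ Γ P' Q')
    (_ : ∀ x ∉ inM Z p K, Q'.A x = P'.A x), Related Γ P Q := by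
  obtain ⟨δ, hδ, s, hs, hin, hsδ, hmain⟩ := rigP_near hε hRig (R + 1) (by linarith)
  refine ⟨δ, hδ, ?_⟩
  intro G hG hGb hGd h hh hhp hhcl α hα hαc M _ _ _ _ _ _ Z hZ Γ O₀ hO₀ hΓ hne P P' Q Q' hd hP hQ
    p W hW hmat hcl hbd K hK hKW hKR hc0 hpw hAoff
  have hd1 : Vale.Agent.P088.B.SameData Γ P Q' :=
    Vale.Agent.P088.H207.O.same_symm (Vale.Agent.P088.B.same_related Z hZ hO₀ hΓ hne hQ
      (Vale.Agent.P088.H207.O.same_symm hd))
  suffices hrel : Related Γ P Q' by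
    subst hZ
    exact Vale.Agent.P088.H207.O.related_tr hrel (Vale.Agent.P088.H207.O.related_inv hQ)
  have hWo : IsOpen (W ∩ {y : Fin n → ℝ | ∀ j, |y j| < R + 1}) := by
    refine hW.1.inter ?_
    have e1 : {y : Fin n → ℝ | ∀ j, |y j| < R + 1} = ⋂ j, {y : Fin n → ℝ | |y j| < R + 1} := by
      ext y
      simp
    rw [e1]
    exact isOpen_iInter_of_finite fun j => isOpen_lt (by fun_prop) continuous_const
  obtain ⟨Ω, g1, g2, g3, g4, g5⟩ := reg_between hK hWo fun y hy =>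
    ⟨hKW hy, fun j => lt_of_le_of_lt (hKR y hy j) (by linarith)⟩
  have g6 : Ω ⊆ W := fun y hy => (g5 (subset_closure hy)).1
  have hΩR : ∀ y ∈ Ω, ∀ j, |y j| ≤ R + 1 := fun y hy j => ((g5 (subset_closure hy)).2 j).le
  have hsub : inM Z p Ω ⊆ inM Z p W := fun x hx => ⟨hx.1, g6 hx.2⟩
  have hdom : IsDom Z p Ω := ⟨g1, g2, g3, fun y hy => hW.2 y (g5 hy).1⟩
  have hαR : ∀ i, ClRC k s ε (α i) := by
    intro i a b l hl y
    have h1 := sc_le hs hl (hαc i a b l hl y)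
    calc s ^ (l + 1) * ‖iteratedFDeriv ℝ l (fun x => α i x a b) y‖
        = s * (s ^ l * ‖iteratedFDeriv ℝ l (fun x => α i x a b) y‖) := by rw [pow_succ]; ring
      _ ≤ s * (max 1 s ^ k * δ) := mul_le_mul_of_nonneg_left h1 hs.le
      _ ≤ ε := hsδ
  have hrig := hmain G hG hGb (by rwa [one_div] at hGd) h hh hhp hhcl Ω g1 g2 hΩR α hα hαR
  subst hZ
  obtain ⟨K₁, k1, k2, k3, k4⟩ := nbK hdom hK g4 hc0
  refine bg_domU hn hN (exG_sm hh) (exG_pos hG hhp) hα hrig (at_ n M) rfl Γ O₀ hO₀ hΓ hne P P' Q'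
    hd1 hP p hdom ?_ K K₁ hK k2 k1 k3 hc0 k4 hpw hAoff ?_
  · intro x hx
    refine ⟨?_, fun i => (hmat x (hsub hx)).2 i⟩
    rw [(hmat x (hsub hx)).1, exG_in hs (hin _ fun j => hΩR _ hx.2 j)]
  · intro g β hg hgp hβ hin' hout hAin hAout
    refine ⟨fun y hy i j l hl => ?_, fun i a b l hl y => ?_⟩
    · obtain ⟨x, hx, hxy⟩ := dom_pt hdom hy
      have h1 := hcl x (hsub hx) i j l hl
      rw [hxy] at h1
      have e1 : (fun y => g y i j - G i j) =ᶠ[𝓝 y]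
          fun y => gch (at_ n M) Q'.g p (y + (at_ n M).ch p p) i j - G i j := by
        filter_upwards [g1.mem_nhds hy] with y' hy'
        rw [hin' y' hy']
      rw [(e1.iteratedFDeriv ℝ l).self_of_nhds]
      have h2 := iteratedFDeriv_comp_add_right (𝕜 := ℝ)
        (f := fun y => gch (at_ n M) Q'.g p y i j - G i j) l ((at_ n M).ch p p) y
      rw [h2]
      exact h1
    · rcases ifd_glue g1 hK.isClosed g4 (φ := fun i y =>
        ach (at_ n M) Q'.A p i (y + (at_ n M).ch p p)) hAin hAout i a b l y with ⟨hy, e⟩ | e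
      · rw [e]
        have h1 := sc_le hs hl (ach_ifd Q' hW hbd (g6 hy) i a b hl)
        calc s ^ (l + 1) * ‖iteratedFDeriv ℝ l
              (fun y => ach (at_ n M) Q'.A p i (y + (at_ n M).ch p p) a b) y‖
            = s * (s ^ l * ‖iteratedFDeriv ℝ l
              (fun y => ach (at_ n M) Q'.A p i (y + (at_ n M).ch p p) a b) y‖) := by
                rw [pow_succ]; ring
          _ ≤ s * (max 1 s ^ k * δ) := mul_le_mul_of_nonneg_left h1 hs.le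
          _ ≤ ε := hsδ
      · rw [e]
        exact hαR i a b l hl y

theorem rigGR_mono {n N k : ℕ} {B ε : ℝ} (h : RigGR n N k B ε) : RigGR n N (k + 1) B ε := by
  intro R hR G hG hGb hGd Ω hΩ hreg hΩb g₁ g₂ s1 s2 p1 p2 hout hoff c1 c2 A₁ A₂ hA1 hA2 hAoff hY1
    hY2 hor
  exact h R hR G hG hGb hGd Ω hΩ hreg hΩb g₁ g₂ s1 s2 p1 p2 hout hoff
    (fun i j l hl => c1 i j l (by omega)) (fun i j l hl => c2 i j l (by omega)) A₁ A₂
    hA1 hA2 hAoff (fun i a b l hl => hY1 i a b l (by omega))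
    (fun i a b l hl => hY2 i a b l (by omega)) hor

/-- **Two arbitrary pairs**: (I) which differ in a small ball; (II) near a constant metric. -/
theorem two_pairs {n : ℕ} [NeZero n] (hn : 3 ≤ n) {N : ℕ} (hN : 1 ≤ N)
    (hRig : ∃ k : ℕ, ∀ B : ℝ, 0 < B → ∃ ε > 0, RigGR n N k B ε) :
    ∃ k : ℕ, (∀ B : ℝ, 0 < B → ∃ r₀ : ℝ, 0 < r₀ ∧ ∀ r : ℝ, 0 < r → r ≤ r₀ →
    ∀ {M : Type u} [TopologicalSpace M]
    [ChartedSpace (EuclideanHalfSpace n) M] [IsManifold (𝓡∂ n) ∞ M] [T2Space M] [CompactSpace M]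
    [ConnectedSpace M] (Z : At n M) (_ : Z = at_ n M) (Γ O₀ : Set M) (_ : IsOpen O₀)
    (_ : Γ = O₀ ∩ bd Z) (_ : Γ.Nonempty) (P P' Q Q' : Pair Z N)
    (_ : Vale.Agent.P088.B.SameData Γ P Q)
    (_ : Related Γ P P') (_ : Related Γ Q Q') (p : M) (_ : IsBall Z p (2 * r))
    (_ : BddM k B P' p {y | ∑ i, y i ^ 2 < (2 * r) ^ 2})
    (_ : BddM k B Q' p {y | ∑ i, y i ^ 2 < (2 * r) ^ 2})
    (_ : BddA k B P' p {y | ∑ i, y i ^ 2 < (2 * r) ^ 2})
    (_ : BddA k B Q' p {y | ∑ i, y i ^ 2 < (2 * r) ^ 2})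
    (_ : B8.PwLe (kball Z p r)ᶜ Γ P' Q') (_ : ∀ x ∉ kball Z p r, Q'.A x = P'.A x),
    Related Γ P Q) ∧
    ∀ B R : ℝ, 0 < B → 0 < R → ∃ δ : ℝ, 0 < δ ∧
    ∀ G : Matrix (Fin n) (Fin n) ℝ, G.PosDef → (∀ i j, |G i j| ≤ B) → 1 / B ≤ G.det →
    ∀ h : LR.MF n, LR.SmM h → (∀ y, (h y).PosDef) → (∀ i j, LR.Cl k δ (fun y => h y i j - G i j)) →
    ∀ α : LR.Cn n N, LR.SmU α → (∀ i, LR.U.ClC k δ (α i)) →
    ∀ {M : Type u} [TopologicalSpace M]
    [ChartedSpace (EuclideanHalfSpace n) M] [IsManifold (𝓡∂ n) ∞ M] [T2Space M] [CompactSpace M]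
    [ConnectedSpace M] (Z : At n M) (_ : Z = at_ n M) (Γ O₀ : Set M) (_ : IsOpen O₀)
    (_ : Γ = O₀ ∩ bd Z) (_ : Γ.Nonempty) (P P' Q Q' : Pair Z N)
    (_ : Vale.Agent.P088.B.SameData Γ P Q)
    (_ : Related Γ P P') (_ : Related Γ Q Q') (p : M) (W : Set (Fin n → ℝ))
    (_ : IsOpn Z p W) (_ : MatchP h α P' p W) (_ : CloseO k δ (fun _ => G) Q' p W)
    (_ : BddA k δ Q' p W) (K : Set (Fin n → ℝ)) (_ : IsCompact K)
    (_ : K ⊆ W) (_ : ∀ y ∈ K, ∀ j, |y j| ≤ R)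
    (_ : IsPreconnected ((bd Z)ᶜ \ inM Z p K)) (_ : B8.PwLe (inM Z p K)ᶜ Γ P' Q')
    (_ : ∀ x ∉ inM Z p K, Q'.A x = P'.A x), Related Γ P Q := by
  obtain ⟨k₀, hk₀⟩ := hRig
  refine ⟨k₀ + 1, fun B hB => ?_, fun B R hB hR => ?_⟩
  · obtain ⟨ε, hε, h⟩ := hk₀ B hB
    exact small_G hn hN (by omega) hB hε (rigGR_mono h)
  · obtain ⟨ε, hε, h⟩ := hk₀ B hB
    exact near_G hn hN hε (rigGR_mono h) R hR

end Vale.Agent.P088.R2.H455.G

end
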