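import Vale.Agent.P088.R2.H455.T.P3

/-!
# P088, JOINT: rigidity of two general pairs near a constant metric at any scale, the statement
-/

open MeasureTheory Set
open scoped ContDiff Matrix

noncomputable section

namespace Vale.Agent.P088.R2.H455.G

open Vale.Agent.P088.LR Vale.Agent.P088.LR.U Vale.Agent.P088.LR.H158
open Vale.Agent.P088.HY.H794 (ClR)
open Vale.Agent.P088.R2.H455.T (ClRC)

/-- Joint rigidity of two pairs near a constant metric in the scale `R`. -/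
def RigGR (n N k : ℕ) (B ε : ℝ) : Prop :=
  ∀ R : ℝ, 0 < R → ∀ G : Matrix (Fin n) (Fin n) ℝ, G.PosDef → (∀ i j, |G i j| ≤ B) →
  B⁻¹ ≤ G.det → ∀ Ω : Set (V n), IsOpen Ω → interior (closure Ω) = Ω →
  (∀ x ∈ Ω, ∀ j, |x j| ≤ 2 * R) → ∀ g₁ g₂ : MF n, SmM g₁ → SmM g₂ → (∀ x, (g₁ x).PosDef) →
  (∀ x, (g₂ x).PosDef) → (∀ x, (∃ j, 4 * R < |x j|) → g₁ x = G) → (∀ x ∉ Ω, g₂ x = g₁ x) →
  (∀ i j, ClR k R ε (fun x => g₁ x i j - G i j)) →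
  (∀ i j, ClR k R ε (fun x => g₂ x i j - G i j)) →
  ∀ A₁ A₂ : Cn n N, SmU A₁ → SmU A₂ → (∀ i, ∀ x ∉ Ω, A₂ i x = A₁ i x) →
  (∀ i, ClRC k R ε (A₁ i)) → (∀ i, ClRC k R ε (A₂ i)) → OrU Ω (sg g₁) A₁ (sg g₂) A₂ →
  ∃ (w K : V n → V n) (U : MC n N), Dif Ω w K ∧
    (∀ x, g₂ x = (jm w x)ᵀ * g₁ (x + w x) * jm w x) ∧ SmC U ∧ (∀ x, (U x)ᴴ * U x = 1) ∧
    (∀ x ∉ Ω, U x = 1) ∧ ∀ i, ∀ x ∈ Ω, A₂ i x = (U x)ᴴ * pb w A₁ i x * U x + (U x)ᴴ * pdm i U x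

end Vale.Agent.P088.R2.H455.G
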