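import Vale.Agent.P088.R2.H455.G.Def
import Vale.Agent.P088.R2.H455.J.K6
import Vale.Agent.P088.R2.H794.Cell

/-!
# P088, JOINT: two general pairs in a small cell
-/

set_option linter.all false

open Bundle Manifold MeasureTheory Set Filter Topology
open scoped ContDiff Matrix ENNReal

noncomputable section

namespace Vale.Agent.P088.R2.H455.G

open Vale.Agent.P088 Vale.Agent.P088.B Vale.Agent.P088.EYM
open Vale.Agent.P088.H207 (gl ch_at src_at gch_at IsDom IsOpn inM MatchO IsBall oball kball rad)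
open Vale.Agent.P088.H207.R (vO vO_sub vO_compact Rg rg_of nbK reg_between dom_pt)
open Vale.Agent.P088.HY.H794 (chR chR_sm chR_nonneg chR_le chR_one chR_zero chR_bd exR exR_in
  exR_out exR_sm exR_pos exR_near exR_nh ClR oB isOpen_oB zero_mem_oB reg_oB closure_oB
  abs_le_of_oB norm_le_of_oB in_r in_r' scal_ifd cont_sq glue_near)
open Vale.Agent.P088.R2.H455.T (ClRC)
open Vale.Agent.P088.R2.H455.J

universe u

/-- **Joint rigidity in a small cell.** -/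
theorem rigP_cell {n N : ℕ} [NeZero n] {k : ℕ} (hk : 1 ≤ k) {B ε : ℝ} (hB : 0 < B) (hε : 0 < ε)
    (hR : RigGR n N k B ε) : ∃ X : ℝ, 1 ≤ X ∧ LR.Cl k X (chR : LR.V n → ℝ) ∧
    ∃ r₀ : ℝ, 0 < r₀ ∧ r₀ ≤ 1 ∧ r₀ * (2 ^ k * (X * B)) ≤ ε ∧
    ∀ r : ℝ, 0 < r → r ≤ r₀ → ∀ f : LR.MF n,
    (∀ i j, ContDiffOn ℝ ∞ (fun y => f y i j) (oB n (2 * r))) →
    (∀ y ∈ oB n (2 * r), (f y).PosDef) →
    (∀ y ∈ oB n (2 * r), ∀ i j, ∀ l ≤ k, ‖iteratedFDeriv ℝ l (fun y => f y i j) y‖ ≤ B) →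
    1 / B ≤ (f 0).det → ∀ Ω : Set (LR.V n), IsOpen Ω → interior (closure Ω) = Ω →
    Ω ⊆ oB n (3 / 2 * r) → ∀ α : LR.Cn n N, LR.SmU α → (∀ i, ClRC k r ε (α i)) →
    RigP n N Ω (exR r f) α (fun g β => (∀ y ∈ Ω, ∀ i j, ∀ l ≤ k,
      ‖iteratedFDeriv ℝ l (fun y => g y i j) y‖ ≤ B) ∧ ∀ i, ClRC k r ε (β i)) := by
  obtain ⟨X, hX1, hX⟩ := chR_bd n k
  obtain ⟨D₀, hD₀⟩ : ∃ D : ℝ, D = 2 ^ k * (X * (2 * B)) := ⟨_, rfl⟩
  have hD0 : 0 < D₀ := by rw [hD₀]; positivity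
  have hBD : B ≤ D₀ := by
    rw [hD₀]
    have h1 : (1 : ℝ) ≤ 2 ^ k := one_le_pow₀ (by norm_num)
    have h2 : B ≤ X * (2 * B) := by nlinarith
    calc B ≤ X * (2 * B) := h2
      _ = 1 * (X * (2 * B)) := (one_mul _).symm
      _ ≤ _ := mul_le_mul_of_nonneg_right h1 (by positivity)
  refine ⟨X, hX1, hX, min 1 (ε / (7 * D₀)), lt_min one_pos (by positivity), min_le_left _ _,
    ?_, ?_⟩
  · have h1 : min 1 (ε / (7 * D₀)) * (2 ^ k * (X * B)) ≤ ε / (7 * D₀) * (2 ^ k * (X * B)) :=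
      mul_le_mul_of_nonneg_right (min_le_right _ _) (by positivity)
    have h2 : ε / (7 * D₀) * (2 ^ k * (X * B)) ≤ ε / (7 * D₀) * (7 * D₀) := by
      refine mul_le_mul_of_nonneg_left ?_ (by positivity)
      rw [hD₀]
      have h3 : 0 < 2 ^ k * (X * B) := by positivity
      nlinarith
    have h4 : ε / (7 * D₀) * (7 * D₀) = ε := by field_simp
    linarith
  intro r hr hr0 f hf hfp hfb hdet Ω hΩ hreg hΩr α hα hαc
  have hr1 : r ≤ 1 := hr0.trans (min_le_left _ _)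
  have hr2 : 7 * (D₀ * r) ≤ ε := by
    have h1 := hr0.trans (min_le_right _ _)
    rw [le_div_iff₀ (by positivity)] at h1
    linarith
  have h0 : (0 : LR.V n) ∈ oB n (2 * r) := zero_mem_oB (by linarith)
  have hbox : ∀ y ∈ Ω, ∀ j, |y j| ≤ 2 * r := fun y hy j => by
    have := abs_le_of_oB (R := 3 / 2 * r) (by positivity) (le_of_lt (hΩr hy)) j
    linarith
  have hsq : ∀ {y : LR.V n} {j : Fin n}, 4 * r < |y j| → 49 / 16 * r ^ 2 ≤ ∑ j, y j ^ 2 := by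
    intro y j hj
    have h1 : y j ^ 2 ≤ ∑ j, y j ^ 2 :=
      Finset.single_le_sum (f := fun j => y j ^ 2) (fun i _ => sq_nonneg _) (Finset.mem_univ j)
    have h2 : (4 * r) ^ 2 ≤ y j ^ 2 := by
      rw [← sq_abs (y j)]
      exact pow_le_pow_left₀ (by positivity) hj.le 2
    nlinarith
  have hhcl : ∀ i j, ClR k r (D₀ * r) (fun y => exR r f y i j - f 0 i j) := fun i j l hl y => by
    have := exR_near hr hr1 hB.le hk hX hX1 hf hfb i j l hl y
    refine this.trans (le_of_eq ?_)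
    rw [hD₀]; ring
  have hDr : 0 ≤ D₀ * r := by positivity
  intro g β hg hgp hoff hβ hβoff hgX hor
  refine hR r hr (f 0) (hfp 0 h0) (fun i j => ?_) ?_ Ω hΩ hreg hbox (exR r f) g
    (exR_sm hr hf) hg (exR_pos hr hfp) hgp ?_ hoff (fun i j => ?_) (fun i j => ?_) α β hα hβ
    hβoff hαc hgX.2 hor
  · have := hfb 0 h0 i j 0 (Nat.zero_le _)
    rwa [norm_iteratedFDeriv_zero, Real.norm_eq_abs] at this
  · rwa [one_div] at hdet
  · rintro y ⟨j, hj⟩
    exact exR_out hr (hsq hj)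
  · intro l hl y
    refine (hhcl i j l hl y).trans ?_
    linarith
  · intro l hl y
    refine (glue_near hr hDr hk hreg hbox (exR_sm hr hf i j) (hg i j)
      (fun y hy => by obtain ⟨j', hj'⟩ := hy; rw [exR_out hr (hsq hj')])
      (fun y hy => by rw [hoff y hy]) (hhcl i j) (fun y hy l hl hl0 => ?_) l hl y).trans hr2
    have h1 := hgX.1 y hy i j l hl
    have h2 : r ^ l ≤ r := by
      calc r ^ l ≤ r ^ 1 := pow_le_pow_of_le_one hr.le hr1 (Nat.pos_of_ne_zero hl0)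
        _ = r := pow_one r
    calc r ^ l * ‖iteratedFDeriv ℝ l (fun y => g y i j) y‖ ≤ r * B :=
          mul_le_mul h2 h1 (norm_nonneg _) hr.le
      _ ≤ D₀ * r := by rw [mul_comm]; exact mul_le_mul_of_nonneg_right hBD hr.le

/-- In the chart at `p`, on `W`: the derivatives of the components of the metric of order at most
`k` are at most `B`, and `det g ≥ 1 / B`. -/
def BddM {n N : ℕ} [NeZero n] {M : Type u} {Z : At n M} (k : ℕ) (B : ℝ) (Q : Pair Z N) (p : M)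
    (W : Set (Fin n → ℝ)) : Prop :=
  ∀ x ∈ inM Z p W,
    (∀ i j, ∀ l ≤ k, ‖iteratedFDeriv ℝ l (fun y => gch Z Q.g p y i j) (Z.ch p x)‖ ≤ B) ∧
      1 / B ≤ (gch Z Q.g p (Z.ch p x)).det

/-- **Two arbitrary pairs which differ in a small ball.** -/
theorem small_G {n : ℕ} [NeZero n] (hn : 3 ≤ n) {N : ℕ} (hN : 1 ≤ N) {k : ℕ} (hk : 1 ≤ k)
    {B ε : ℝ} (hB : 0 < B) (hε : 0 < ε) (hR : RigGR n N k B ε) :
    ∃ r₀ : ℝ, 0 < r₀ ∧ ∀ r : ℝ, 0 < r → r ≤ r₀ →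
    ∀ {M : Type u} [TopologicalSpace M]
    [ChartedSpace (EuclideanHalfSpace n) M] [IsManifold (𝓡∂ n) ∞ M] [T2Space M] [CompactSpace M]
    [ConnectedSpace M] (Z : At n M) (_ : Z = at_ n M) (Γ O₀ : Set M) (_ : IsOpen O₀)
    (_ : Γ = O₀ ∩ bd Z) (_ : Γ.Nonempty) (P P' Q Q' : Pair Z N)
    (_ : Vale.Agent.P088.B.SameData Γ P Q)
    (_ : Related Γ P P') (_ : Related Γ Q Q') (p : M) (_ : IsBall Z p (2 * r))
    (_ : BddM k B P' p {y | ∑ i, y i ^ 2 < (2 * r) ^ 2})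
    (_ : BddM k B Q' p {y | ∑ i, y i ^ 2 < (2 * r) ^ 2})
    (_ : BddA k B P' p {y | ∑ i, y i ^ 2 < (2 * r) ^ 2})
    (_ : BddA k B Q' p {y | ∑ i, y i ^ 2 < (2 * r) ^ 2})
    (_ : B8.PwLe (kball Z p r)ᶜ Γ P' Q') (_ : ∀ x ∉ kball Z p r, Q'.A x = P'.A x),
    Related Γ P Q := by
  obtain ⟨X, hX1, hX, r₀, hr₀, hr₀1, hr₀e, hcell⟩ := rigP_cell hk hB hε hR
  refine ⟨r₀, hr₀, ?_⟩
  intro r hr hrr M _ _ _ _ _ _ Z hZ Γ O₀ hO₀ hΓ hne P P' Q Q' hd hP hQ p hp h1 h2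
    ha1 ha2 hpw hAoff
  have hr1 : r ≤ 1 := hrr.trans hr₀1
  have hre : r * (2 ^ k * (X * B)) ≤ ε :=
    (mul_le_mul_of_nonneg_right hrr (by positivity)).trans hr₀e
  have hre2 : r * B ≤ ε := by
    have h1 : B ≤ 2 ^ k * (X * B) := by
      have h2 : (1 : ℝ) ≤ 2 ^ k := one_le_pow₀ (by norm_num)
      have h3 : B ≤ X * B := by nlinarith
      nlinarith
    exact (mul_le_mul_of_nonneg_left h1 hr.le).trans hre
  have hd1 : Vale.Agent.P088.B.SameData Γ P Q' :=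
    Vale.Agent.P088.H207.O.same_symm (Vale.Agent.P088.B.same_related Z hZ hO₀ hΓ hne hQ
      (Vale.Agent.P088.H207.O.same_symm hd))
  suffices hrel : Related Γ P Q' by
    subst hZ
    exact Vale.Agent.P088.H207.O.related_tr hrel (Vale.Agent.P088.H207.O.related_inv hQ)
  subst hZ
  -- points of the ball
  have hpt : ∀ y : Fin n → ℝ, ∑ j, y j ^ 2 ≤ (2 * r) ^ 2 → 0 < (y + (at_ n M).ch p p) 0 ∧
      ∃ x ∈ (at_ n M).src p, (at_ n M).ch p x = y + (at_ n M).ch p p := by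
    intro y hy
    refine hp.2 _ ?_
    show ∑ i, ((y + (at_ n M).ch p p) i - (at_ n M).ch p p i) ^ 2 ≤ (2 * r) ^ 2
    simpa using hy
  have hopn : IsOpn (at_ n M) p (oB n (2 * r)) := ⟨isOpen_oB _, fun y hy => hpt y (le_of_lt hy)⟩
  have hsub : ∀ {a b : ℝ}, 0 < a → a ≤ b → oB n a ⊆ oB n b := fun ha hab y hy =>
    lt_of_lt_of_le hy (pow_le_pow_left₀ ha.le hab 2)
  have h32 : (0 : ℝ) < 3 / 2 * r := by positivity
  have hW2 : oB n (3 / 2 * r) ⊆ oB n (2 * r) := hsub h32 (by linarith)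
  have hcl : closure (oB n (3 / 2 * r)) ⊆ oB n (2 * r) := by
    rw [closure_oB h32]
    intro y hy
    have h3 : ∑ j, y j ^ 2 ≤ (3 / 2 * r) ^ 2 := hy
    show ∑ j, y j ^ 2 < (2 * r) ^ 2
    have : 0 < r ^ 2 := by positivity
    nlinarith
  have hdom : IsDom (at_ n M) p (oB n (3 / 2 * r)) := by
    refine ⟨isOpen_oB _, reg_oB h32, ?_, fun y hy => hpt y (le_of_lt (hcl hy))⟩
    refine (Metric.isBounded_closedBall (x := (0 : Fin n → ℝ)) (r := 3 / 2 * r)).subset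
      fun y hy => ?_
    rw [mem_closedBall_zero_iff]
    exact norm_le_of_oB h32 hy
  -- the metric
  obtain ⟨f, hf⟩ : ∃ f : LR.MF n, f = fun y => gch (at_ n M) P'.g p (y + (at_ n M).ch p p) :=
    ⟨_, rfl⟩
  have hfs : ∀ i j, ContDiffOn ℝ ∞ (fun y => f y i j) (oB n (2 * r)) := by
    rw [hf]; exact gch_cd P' hopn
  have hfp : ∀ y ∈ oB n (2 * r), (f y).PosDef := by
    rw [hf]; exact fun y hy => gch_pd P' hopn hy
  have hmifd : ∀ (Q : Pair (at_ n M) N), BddM k B Q p {y | ∑ i, y i ^ 2 < (2 * r) ^ 2} →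
      ∀ y ∈ oB n (2 * r), (∀ i j, ∀ l ≤ k, ‖iteratedFDeriv ℝ l
        (fun y => gch (at_ n M) Q.g p (y + (at_ n M).ch p p) i j) y‖ ≤ B) ∧
        1 / B ≤ (gch (at_ n M) Q.g p (y + (at_ n M).ch p p)).det := by
    intro Q hQ y hy
    obtain ⟨x, hx, hxy⟩ := op_pt hopn hy
    have h3 := hQ x hx
    rw [hxy] at h3
    refine ⟨fun i j l hl => ?_, h3.2⟩
    have h4 := iteratedFDeriv_comp_add_right (𝕜 := ℝ)
      (f := fun y => gch (at_ n M) Q.g p y i j) l ((at_ n M).ch p p) y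
    rw [h4]
    exact h3.1 i j l hl
  have h0 : (0 : Fin n → ℝ) ∈ oB n (2 * r) := zero_mem_oB (by linarith)
  -- the compact set
  have hcpt : ∀ a : ℝ, 0 < a → IsCompact {y : Fin n → ℝ | ∑ j, y j ^ 2 ≤ a ^ 2} := fun a ha => by
    refine Metric.isCompact_of_isClosed_isBounded (isClosed_le cont_sq continuous_const) ?_
    refine (Metric.isBounded_closedBall (x := (0 : Fin n → ℝ)) (r := a)).subset fun y hy => ?_
    rw [mem_closedBall_zero_iff, pi_norm_le_iff_of_nonneg ha.le]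
    exact fun j => abs_le_of_oB ha hy j
  letI := borel M
  haveI : BorelSpace M := ⟨rfl⟩
  have hCB : IsCB n p (2 * r) := Vale.Agent.P088.H207.isCB_of hp
  have hkb : kball (at_ n M) p r = inM (at_ n M) p {y : Fin n → ℝ | ∑ j, y j ^ 2 ≤ r ^ 2} := rfl
  have hin : inM (at_ n M) p {y : Fin n → ℝ | ∑ j, y j ^ 2 ≤ r ^ 2} = cb n p r := by
    rw [← hkb]
    exact Vale.Agent.P088.H207.kball_at hCB hr.le (by linarith)
  have hb : bd (at_ n M) = (𝓡∂ n).boundary M := bd_at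
  have hmi : (bd (at_ n M))ᶜ = Mi n M := by
    rw [hb, ← ModelWithCorners.compl_interior, compl_compl]
  have hconn : IsPreconnected ((bd (at_ n M))ᶜ \
      inM (at_ n M) p {y : Fin n → ℝ | ∑ j, y j ^ 2 ≤ r ^ 2}) := by
    rw [hin, hmi]
    have hsubM : (xc n p).symm '' Metric.ball (xc n p p) (2 * r) ⊆ Mi n M := by
      intro x hx
      exact cRungeB_cb_mi TM.fLoc hCB (image_mono Metric.ball_subset_closedBall hx)
    exact Vale.Agent.P088.EYM.O.D779.top_diff (TM.fConn n M).2.1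
      (cRungeB_cb_closed hCB (by linarith))
      (cRungeB_B_open TM.fLoc hCB) hsubM
      (image_mono (Metric.closedBall_subset_ball (by linarith)))
      ⟨_, mem_image_of_mem _ (Metric.mem_closedBall_self hr.le)⟩
      (cRungeB_A_conn (by omega) hCB hr (by linarith))
  have hKΩ : {y : Fin n → ℝ | ∑ j, y j ^ 2 ≤ r ^ 2} ⊆ oB n (3 / 2 * r) := by
    intro y hy
    have h4 : ∑ j, y j ^ 2 ≤ r ^ 2 := hy
    show ∑ j, y j ^ 2 < (3 / 2 * r) ^ 2
    have : 0 < r ^ 2 := by positivity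
    nlinarith
  -- the connection
  obtain ⟨a, ha⟩ : ∃ a : LR.Cn n N, a = fun i y =>
      ach (at_ n M) P'.A p i (y + (at_ n M).ch p p) := ⟨_, rfl⟩
  have has : ∀ i p' q, ContDiffOn ℝ ∞ (fun y => a i y p' q) (oB n (2 * r)) := by
    rw [ha]; exact fun i p' q => ach_cd P' hopn i p' q
  have hask : ∀ i, ∀ y ∈ oB n (2 * r), (a i y)ᴴ = -a i y := by
    rw [ha]; exact fun i y hy => ach_sk P' hopn i hy
  have hab : ∀ y ∈ oB n (2 * r), ∀ i p' q, ∀ l ≤ k,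
      ‖iteratedFDeriv ℝ l (fun y => a i y p' q) y‖ ≤ B := by
    rw [ha]; exact fun y hy i p' q l hl => ach_ifd P' hopn ha1 hy i p' q hl
  have hαc : ∀ i, ClRC k r ε (exA r a i) := fun i p' q l hl y =>
    (exA_cl hr hr1 hB.le hX (by linarith) has hab i p' q l hl y).trans hre
  have hαU : LR.SmU (exA r a) := exA_smU hr has hask
  have hrig := hcell r hr hrr f hfs hfp (by rw [hf]; exact fun y hy => (hmifd P' h1 y hy).1)
    (by rw [hf]; exact (hmifd P' h1 0 h0).2) (oB n (3 / 2 * r)) hdom.1 hdom.2.1 subset_rfl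
    (exA r a) hαU hαc
  obtain ⟨K₁, k1, k2, k3, k4⟩ := nbK hdom (hcpt r hr) hKΩ hconn
  refine bg_domU hn hN (exR_sm hr hfs) (exR_pos hr hfp) hαU hrig (at_ n M) rfl Γ O₀ hO₀ hΓ hne
    P P' Q' hd1 hP p hdom ?_ _ K₁ (hcpt r hr) k2 k1 k3 hconn k4 (by rw [← hkb]; exact hpw)
    (by rw [← hkb]; exact hAoff) ?_
  · rintro x ⟨hx, hx'⟩
    refine ⟨?_, fun i => ?_⟩
    · rw [exR_in hr (le_of_lt hx'), hf]
      show _ = gch (at_ n M) P'.g p ((at_ n M).ch p x - (at_ n M).ch p p + (at_ n M).ch p p)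
      rw [sub_add_cancel]
    · rw [exA_in hr (le_of_lt hx'), ha]
      show _ = ach (at_ n M) P'.A p i ((at_ n M).ch p x - (at_ n M).ch p p + (at_ n M).ch p p)
      rw [sub_add_cancel]
  · intro g β hg hgp hβ hin' hout hAin hAout
    refine ⟨fun y hy i j l hl => ?_, fun i p' q l hl y => ?_⟩
    · have e1 : (fun y => g y i j) =ᶠ[𝓝 y]
          fun y => gch (at_ n M) Q'.g p (y + (at_ n M).ch p p) i j := by
        filter_upwards [(isOpen_oB (3 / 2 * r)).mem_nhds hy] with y' hy'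
        rw [hin' y' hy']
      rw [(e1.iteratedFDeriv ℝ l).self_of_nhds]
      exact (hmifd Q' h2 y (hW2 hy)).1 i j l hl
    · rcases ifd_glue (isOpen_oB (3 / 2 * r)) (hcpt r hr).isClosed hKΩ (φ := fun i y =>
        ach (at_ n M) Q'.A p i (y + (at_ n M).ch p p)) hAin hAout i p' q l y with ⟨hy, e⟩ | e
      · rw [e]
        have h1 := ach_ifd Q' hopn ha2 (hW2 hy) i p' q hl
        have h2 : r ^ (l + 1) ≤ r := by
          calc r ^ (l + 1) ≤ r ^ 1 := pow_le_pow_of_le_one hr.le hr1 (by omega)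
            _ = r := pow_one r
        exact (mul_le_mul h2 h1 (norm_nonneg _) hr.le).trans hre2
      · rw [e]
        exact hαc i p' q l hl y

end Vale.Agent.P088.R2.H455.G

end
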